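import Vale.Agent.Lib.P064.Defs
import Vale.Agent.Lib.P064.PcDefs
import Vale.Agent.Lib.P064.Orient.Final

/-!
P064, second Kahn-Kalai conjecture.  For every graph H with an edge on at most n vertices:
(1) p_c(n,H) is at most 1194200 p_E(n,H) log^2 n;
(2) if H is a forest, p_c(n,H) is at most 72100000 p_E(n,H) log n;
(3) if all degrees of H are at most D, p_c(n,H) is at most 22680 D p_E(n,H) log n;
(4) tilde p_E(n,H) is at most 8530 p_E(n,H) log n.
-/

open SimpleGraph

namespace Vale.Agent.Results.P064.PcCombined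

open Vale.Agent.Lib.P064

theorem result (n : ℕ) (hn : 2 ≤ n) {V : Type*} [Fintype V] (H : SimpleGraph V)
    (hV : Fintype.card V ≤ n) (hE : ∃ a b, H.Adj a b) :
    pc n H ≤ 1194200 * pE n H * Real.log n ^ 2 ∧
    (H.IsAcyclic → pc n H ≤ 72100000 * pE n H * Real.log n) ∧
    (∀ D : ℕ, (∀ v, (H.neighborSet v).ncard ≤ D) →
      pc n H ≤ 22680 * D * pE n H * Real.log n) ∧
    pEtilde n H ≤ 8530 * Real.log n * pE n H := by
  refine ⟨Orient.pc_le_log_sq n hn H hV hE, fun hH => Forest.pc_le_forest n hn H hH hV hE,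
    ?_, Orient.pEtilde_le_log n hn H hV⟩
  intro D hD
  have hD0 : 1 ≤ D := by
    obtain ⟨a, b, hab⟩ := hE
    refine le_trans ?_ (hD a)
    rw [Nat.succ_le_iff, Set.ncard_pos (Set.toFinite _)]
    exact ⟨b, hab⟩
  have h1 := PP.pc_le_tilde n hn H hV hE
  have h2 := pEtilde_le_of_bddDegree n H hV D hD0 hD
  have hlog : 0 ≤ Real.log n := Real.log_natCast_nonneg n
  calc pc n H ≤ 140 * Real.log n * pEtilde n H := h1
    _ ≤ 140 * Real.log n * (162 * D * pE n H) :=
        mul_le_mul_of_nonneg_left h2 (by positivity)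
    _ = 22680 * D * pE n H * Real.log n := by ring

end Vale.Agent.Results.P064.PcCombined
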