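import Vale.Agent.Lib.P064.Defs
import Vale.Agent.Lib.P064.PcDefs
import Vale.Agent.Lib.P064.Forest.Final

/-!
P064, second Kahn-Kalai conjecture.  For every forest H with an edge on at most n vertices
(arbitrary, unbounded degrees), p_c(n,H) is at most 72100000 p_E(n,H) log n.
-/

open SimpleGraph

namespace Vale.Agent.Results.P064.PcForest

open Vale.Agent.Lib.P064

theorem result (n : ℕ) (hn : 2 ≤ n) {V : Type*} [Fintype V] (H : SimpleGraph V)
    (hV : Fintype.card V ≤ n) (hE : ∃ a b, H.Adj a b) (hH : H.IsAcyclic) :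
    pc n H ≤ 72100000 * pE n H * Real.log n :=
  Forest.pc_le_forest n hn H hH hV hE

end Vale.Agent.Results.P064.PcForest
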