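import Vale.Agent.Lib.P064.Defs
import Vale.Agent.Lib.P064.Orient.Final

/-!
P064, second Kahn-Kalai conjecture.  For every graph H on at most n vertices:
(1) tilde p_E(n,H) is at most 8530 p_E(n,H) log n;
(2) if every subgraph of H has expected count at least 1 at density q, then for every graph F
    N(H,F) is at most N(K_n,F) min(1, 2956 max(1, log n) q)^{e(F)}.
-/

open SimpleGraph

namespace Vale.Agent.Results.P064.TildeLog

open Vale.Agent.Lib.P064

theorem result (n : ℕ) (hn : 2 ≤ n) {V : Type*} [Fintype V] (H : SimpleGraph V)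
    (hV : Fintype.card V ≤ n) :
    pEtilde n H ≤ 8530 * Real.log n * pE n H ∧
    ∀ q : ℝ, 0 ≤ q → q ≤ 1 →
      (∀ K : H.Subgraph,
        1 ≤ ((⊤ : SimpleGraph (Fin n)).copyCount K.coe : ℝ) * q ^ K.coe.edgeSet.ncard) →
      ∀ (W : Type) [Fintype W] (F : SimpleGraph W),
        (H.copyCount F : ℝ) ≤ ((⊤ : SimpleGraph (Fin n)).copyCount F : ℝ) *
          (min 1 (2956 * max 1 (Real.log n) * q)) ^ F.edgeSet.ncard := by
  refine ⟨Orient.pEtilde_le_log n hn H hV, ?_⟩
  intro q hq0 hq1 hH W _ F
  have h := Orient.log_closed n H hV q hq0 hq1 hH F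
  refine h.trans (mul_le_mul_of_nonneg_left (pow_le_pow_left₀ ?_ ?_ _) (Nat.cast_nonneg _))
  · have := Orient.one_le_Lam n
    exact le_min zero_le_one (by positivity)
  · refine min_le_min le_rfl ?_
    have h1 := Orient.exp_two_le
    have h2 := Orient.one_le_Lam n
    have h3 : 400 * Real.exp 2 ≤ 2956 := by linarith
    have h4 : 0 ≤ Orient.Lam n * q := by positivity
    calc 400 * Real.exp 2 * Orient.Lam n * q = (400 * Real.exp 2) * (Orient.Lam n * q) := by ring
      _ ≤ 2956 * (Orient.Lam n * q) := mul_le_mul_of_nonneg_right h3 h4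
      _ = 2956 * max 1 (Real.log n) * q := by unfold Orient.Lam; ring

end Vale.Agent.Results.P064.TildeLog
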